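import Vale.Agent.Snaky.Assemble

/-!
# Helper statements for the second level certificates

Maker owns two window cells, Breaker owns one window cell and possibly one more cell.
-/

namespace Vale.Agent.Snaky

/-- Two stones as a bit set. -/
def pairBits (a c : Nat) : Nat := Nat.lor (2 ^ a) (2 ^ c)

/-- One stone as a bit set. -/
def oneBit (c : Nat) : Nat := 2 ^ c

theorem compatM_pair (a c : Nat) : CompatM (pairBits a c) {cellOf c, cellOf a} :=
  compatM_insert (compatM_single a) c

theorem testBit_lor_left (x y i : Nat) (h : x.testBit i = true) :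
    (Nat.lor x y).testBit i = true := by
  have : (Nat.lor x y).testBit i = (x.testBit i || y.testBit i) := Nat.testBit_or x y i
  rw [this, h]
  rfl

theorem testBit_lor_right (x y i : Nat) (h : y.testBit i = true) :
    (Nat.lor x y).testBit i = true := by
  have : (Nat.lor x y).testBit i = (x.testBit i || y.testBit i) := Nat.testBit_or x y i
  rw [this, h]
  simp

theorem compatB_pair (z e i : Nat) : CompatB z (pairBits e i) {cellOf e, cellOf i} := by
  intro j _ h
  rw [Finset.mem_insert, Finset.mem_singleton] at h
  unfold pairBits
  rcases h with h | h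
  · have e := cellOf_inj h
    subst e
    exact testBit_lor_left _ _ _ (Nat.testBit_two_pow_self)
  · have e := cellOf_inj h
    subst e
    exact testBit_lor_right _ _ _ (Nat.testBit_two_pow_self)

/-- An accepted certificate from the position with two Maker stones and two Breaker stones. -/
theorem reply2 (T : Strat) (a c e i : Nat) (h : checkS T (pairBits a c) (pairBits e i) ≠ 0) :
    MakerWins {cellOf c, cellOf a} {cellOf e, cellOf i} :=
  soundS T _ _ h (compatM_pair a c) (compatB_pair _ e i)

/-- An accepted certificate from the position with two Maker stones and one Breaker stone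
answers every further Breaker stone outside its zone. -/
theorem far2 (T : Strat) (a c e z : Nat) (h : checkS T (pairBits a c) (oneBit e) = z) (hz : z ≠ 0)
    (b : Cell) (hb : ∀ i, z.testBit i = true → cellOf i ≠ b) :
    MakerWins {cellOf c, cellOf a} {cellOf e, b} := by
  refine soundS T _ _ (by rw [h]; exact hz) (compatM_pair a c) ?_
  intro j hj hjb
  rw [h] at hj
  rw [Finset.mem_insert, Finset.mem_singleton] at hjb
  rcases hjb with h1 | h1
  · have e := cellOf_inj h1
    subst e
    unfold oneBit
    exact Nat.testBit_two_pow_self
  · exact absurd h1 (hb j hj)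

/-- Move the window to the origin. -/
theorem to_origin2 {b : Cell} (h : MakerWins {cellOf 881, cellOf 840} {cellOf 841, b}) :
    MakerWins {((0 : ℤ), (0 : ℤ)), ((0 : ℤ), (1 : ℤ))}
      {((1 : ℤ), (0 : ℤ)), place (-20, -20) (1, 0, 0, 1) b} := by
  have := MakerWins.image h (-20, -20) (20, 20) (S := (1, 0, 0, 1)) (S' := (1, 0, 0, 1))
    (by decide)
    (fun c => by obtain ⟨x, y⟩ := c; simp [place]) (fun c => by obtain ⟨x, y⟩ := c; simp [place])
  rw [Finset.image_insert, Finset.image_singleton, Finset.image_insert,
    Finset.image_singleton] at this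
  have h0 : place (-20, -20) (1, 0, 0, 1) (cellOf 840) = ((0 : ℤ), (0 : ℤ)) := by decide
  have h1 : place (-20, -20) (1, 0, 0, 1) (cellOf 881) = ((0 : ℤ), (1 : ℤ)) := by decide
  have h2 : place (-20, -20) (1, 0, 0, 1) (cellOf 841) = ((1 : ℤ), (0 : ℤ)) := by decide
  rw [h0, h1, h2, Finset.pair_comm] at this
  exact this

end Vale.Agent.Snaky
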